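import Mathlib
import Vale.Agent.Lib.P345.Atoms

/-!
# Quantifier-free sets have single-fold Diophantine representations (P345)

Every subset of `ℕ^n` that is a Boolean combination of sets of the form `{a | 0 ≤ p(a)}` and
`{a | d ∣ p(a)}`, with `p` a polynomial with integer coefficients and `d` an integer, has a
single-fold Diophantine representation, and so has its complement.  All witness variables
range over the natural numbers and all of them are counted in the uniqueness requirement.
-/

namespace Vale.Agent.Results.P345.QuantifierFree

open Vale.Agent.Lib.P345

theorem result {n : ℕ} (S : Set (Fin n → ℕ)) (h : QF S) : SingleFold S ∧ SingleFold Sᶜ :=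
  h.singleFold

end Vale.Agent.Results.P345.QuantifierFree
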