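import Mathlib
import Vale.Agent.Lib.P345.NonSquare

/-!
# Closure properties of single-fold Diophantine sets (P345)

For every `n`, the family of subsets of `ℕ^n` that have a single-fold Diophantine
representation

1. contains every Boolean combination of sets `{a | 0 ≤ p(a)}` and `{a | d ∣ p(a)}` (`p` a
   polynomial with integer coefficients, `d` an integer), together with its complement;
2. is closed under intersection;
3. is closed under union of two disjoint sets;
4. is closed under definition by cases on a quantifier-free condition;
5. contains the projection along the last coordinate of every single-fold subset of `ℕ^(n+1)`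
   in which the last coordinate is determined by the others.

As an example, the set of natural numbers that are not perfect squares has a single-fold
Diophantine representation.  All witness variables range over the natural numbers and all of
them are counted in the uniqueness requirement.
-/

namespace Vale.Agent.Results.P345.QuantifierFreeClosure

open Vale.Agent.Lib.P345

theorem result :
    (∀ n : ℕ,
      (∀ S : Set (Fin n → ℕ), QF S → SingleFold S ∧ SingleFold (Compl.compl S)) ∧
      (∀ S T : Set (Fin n → ℕ), SingleFold S → SingleFold T → SingleFold (S ∩ T)) ∧
      (∀ S T : Set (Fin n → ℕ), SingleFold S → SingleFold T → Disjoint S T →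
        SingleFold (S ∪ T)) ∧
      (∀ Q S T : Set (Fin n → ℕ), QF Q → SingleFold S → SingleFold T →
        SingleFold ((Q ∩ S) ∪ (Compl.compl Q ∩ T))) ∧
      (∀ S : Set (Fin (n + 1) → ℕ), SingleFold S →
        (∀ s ∈ S, ∀ s' ∈ S, (∀ i : Fin n, s i.castSucc = s' i.castSucc) → s = s') →
        SingleFold {a : Fin n → ℕ | ∃ s ∈ S, ∀ i : Fin n, s i.castSucc = a i})) ∧
    SingleFold {a : Fin 1 → ℕ | ¬ ∃ w : ℕ, a 0 = w ^ 2} :=
  ⟨fun _ => ⟨fun _ h => h.singleFold, fun _ _ hS hT => singleFold_inter hS hT,
    fun _ _ hS hT hd => singleFold_union hS hT hd,
    fun _ _ _ hQ hS hT => singleFold_cases hQ hS hT,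
    fun _ hS hu => singleFold_proj hS hu⟩, singleFold_nonSquare⟩

end Vale.Agent.Results.P345.QuantifierFreeClosure
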